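import Vale.Agent.P235.H134.Grid.Stmts

/-!
# A minor-closed family contains every connected minor of its connected members (row G0)
-/

namespace Vale.Agent.P235.H39

open SimpleGraph Vale.Agent.P235.H134

/-- Images of connected graphs under maps which contract or preserve edges are connected. -/
theorem conn_of_weak {V V' : Type*} {G : SimpleGraph V} {G' : SimpleGraph V'} (hG : G.Connected)
    (f : V → V') (hf : Function.Surjective f)
    (h : ∀ x y, G.Adj x y → f x = f y ∨ G'.Adj (f x) (f y)) : G'.Connected := by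
  have key : ∀ x y, G.Walk x y → G'.Reachable (f x) (f y) := by
    intro x y w
    induction w with
    | nil => exact Reachable.refl _
    | cons hadj _ ih =>
      rcases h _ _ hadj with h1 | h1
      · rw [h1]; exact ih
      · exact h1.reachable.trans ih
  have : Nonempty V' := hG.nonempty.map f
  refine ⟨fun a b => ?_⟩
  obtain ⟨x, rfl⟩ := hf a
  obtain ⟨y, rfl⟩ := hf b
  obtain ⟨w⟩ := hG.preconnected x y
  exact key x y w

/-- The same for induced subgraphs. -/
theorem conn_induce_of_weak {V V' : Type*} {G : SimpleGraph V} {G' : SimpleGraph V'} {S : Set V}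
    {S' : Set V'} (hG : (G.induce S).Connected) (f : V → V') (hS : ∀ x ∈ S, f x ∈ S')
    (hf : ∀ y ∈ S', ∃ x ∈ S, f x = y)
    (h : ∀ x ∈ S, ∀ y ∈ S, G.Adj x y → f x = f y ∨ G'.Adj (f x) (f y)) :
    (G'.induce S').Connected := by
  refine conn_of_weak hG (fun x : S => (⟨f x.1, hS x.1 x.2⟩ : S')) ?_ ?_
  · rintro ⟨y, hy⟩
    obtain ⟨x, hx, rfl⟩ := hf y hy
    exact ⟨⟨x, hx⟩, rfl⟩
  · rintro ⟨x, hx⟩ ⟨y, hy⟩ hxy
    rcases h x hx y hy hxy with h1 | h1
    · exact Or.inl (Subtype.ext h1)
    · exact Or.inr h1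

/-- The contraction map. -/
noncomputable def pi {V : Type} (u v : V) (huv : u ≠ v) (x : V) : {x : V // x ≠ v} :=
  open Classical in if h : x = v then ⟨u, huv⟩ else ⟨x, h⟩

theorem pi_self {V : Type} {u v : V} (huv : u ≠ v) : pi u v huv v = ⟨u, huv⟩ := by
  simp [pi]

theorem pi_of_ne {V : Type} {u v : V} (huv : u ≠ v) {x : V} (hx : x ≠ v) :
    pi u v huv x = ⟨x, hx⟩ := by
  simp [pi, hx]

theorem pi_weak {V : Type} (G : SimpleGraph V) {u v : V} (huv : u ≠ v) (x y : V)
    (h : G.Adj x y) : pi u v huv x = pi u v huv y ∨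
      (contractEdge G u v).Adj (pi u v huv x) (pi u v huv y) := by
  by_cases he : pi u v huv x = pi u v huv y
  · exact Or.inl he
  right
  refine ⟨he, ?_⟩
  by_cases hx : x = v
  · subst hx
    have hy : y ≠ x := h.ne'
    rw [pi_self, pi_of_ne huv hy]
    exact Or.inr (Or.inl ⟨rfl, h⟩)
  · by_cases hy : y = v
    · subst hy
      rw [pi_self, pi_of_ne huv hx]
      exact Or.inr (Or.inr ⟨rfl, h.symm⟩)
    · rw [pi_of_ne huv hx, pi_of_ne huv hy]
      exact Or.inl h

theorem contract_connected {V : Type} {G : SimpleGraph V} (hG : G.Connected) {u v : V}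
    (huv : u ≠ v) : (contractEdge G u v).Connected := by
  refine conn_of_weak hG (pi u v huv) ?_ (pi_weak G huv)
  rintro ⟨x, hx⟩
  exact ⟨x, pi_of_ne huv hx⟩

/-- Spanning connected subgraphs: delete the edges one by one. -/
theorem subgraph_mem {F : ∀ V : Type, SimpleGraph V → Prop} (hF : MinorClosed F) {V : Type}
    [Finite V] (n : ℕ) : ∀ (G H : SimpleGraph V), (G.edgeSet \ H.edgeSet).ncard ≤ n → H ≤ G →
      H.Connected → F V G → F V H := by
  induction n with
  | zero =>
    intro G H hn hle hH hG
    have h0 : G.edgeSet \ H.edgeSet = ∅ := by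
      rw [← Set.ncard_eq_zero (Set.toFinite _)]; omega
    have h1 : G = H := by
      refine le_antisymm ?_ hle
      rw [← edgeSet_subset_edgeSet]
      exact Set.sdiff_eq_empty.1 h0
    rw [← h1]; exact hG
  | succ n ih =>
    intro G H hn hle hH hG
    by_cases h0 : G.edgeSet \ H.edgeSet = ∅
    · refine ih G H ?_ hle hH hG
      rw [h0]; simp
    obtain ⟨e, heG, heH⟩ := Set.nonempty_iff_ne_empty.2 h0
    have hle' : H ≤ G.deleteEdges {e} := by
      intro a b hab
      rw [deleteEdges_adj]
      refine ⟨hle hab, fun h => heH ?_⟩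
      rw [Set.mem_singleton_iff] at h
      rw [← h]; exact hab
    have hc : (G.deleteEdges {e}).Connected := hH.mono hle'
    refine ih (G.deleteEdges {e}) H ?_ hle' hH (hF.deleteEdge V G e heG hc hG)
    have hlt : ((G.deleteEdges {e}).edgeSet \ H.edgeSet).ncard < (G.edgeSet \ H.edgeSet).ncard := by
      refine Set.ncard_lt_ncard ?_ (Set.toFinite _)
      refine ⟨fun x hx => ?_, fun hsub => ?_⟩
      · rw [edgeSet_deleteEdges] at hx
        exact ⟨hx.1.1, hx.2⟩
      · have := (hsub ⟨heG, heH⟩).1
        rw [edgeSet_deleteEdges] at this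
        exact this.2 rfl
    omega

/-- One contraction step keeps a model. -/
theorem model_contract {V W : Type} {G : SimpleGraph V} {H : SimpleGraph W} {μ : W → Set V}
    (hc : ∀ a, (G.induce (μ a)).Connected) (hd : ∀ a b, a ≠ b → Disjoint (μ a) (μ b))
    (ha : ∀ a b, H.Adj a b → ∃ x ∈ μ a, ∃ y ∈ μ b, G.Adj x y) {u v : V} (huv : u ≠ v)
    (hv : ∀ a, v ∈ μ a → u ∈ μ a) : IsMinor H (contractEdge G u v) := by
  have hmem : ∀ a, ∀ x ∈ μ a, (pi u v huv x).1 ∈ μ a := by
    intro a x hx
    by_cases h : x = v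
    · subst h; rw [pi_self]; exact hv a hx
    · rw [pi_of_ne huv h]; exact hx
  refine ⟨fun a => {z | z.1 ∈ μ a}, fun a => ?_, fun a b hab => ?_, fun a b hab => ?_⟩
  · refine conn_induce_of_weak (hc a) (pi u v huv) (hmem a) ?_
      (fun x _ y _ h => pi_weak G huv x y h)
    rintro ⟨y, hy⟩ hy'
    exact ⟨y, hy', pi_of_ne huv hy⟩
  · rw [Set.disjoint_left]
    intro z hz hz'
    exact Set.disjoint_left.1 (hd a b hab) hz hz'
  · obtain ⟨x, hx, y, hy, hxy⟩ := ha a b hab
    refine ⟨pi u v huv x, hmem a x hx, pi u v huv y, hmem b y hy, ?_⟩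
    rcases pi_weak G huv x y hxy with h | h
    · exfalso
      have h2 := hmem b y hy
      rw [← h] at h2
      exact Set.disjoint_left.1 (hd a b hab.ne) (hmem a x hx) h2
    · exact h

theorem minor_aux (F : ∀ V : Type, SimpleGraph V → Prop) (hF : MinorClosed F) (n : ℕ) :
    ∀ (V W : Type) [Finite V] [Finite W] (G : SimpleGraph V) (H : SimpleGraph W),
      Nat.card V = n → G.Connected → H.Connected → IsMinor H G → F V G → F W H := by
  induction n with
  | zero =>
    intro V W _ _ G H hn hG hH _ _
    have : Nonempty V := hG.nonempty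
    have : 0 < Nat.card V := Nat.card_pos
    omega
  | succ n ih =>
    intro V W _ _ G H hn hG hH hmin hFG
    obtain ⟨μ, hc, hd, ha⟩ := hmin
    by_cases hstep : ∃ u v, G.Adj u v ∧ ∀ a, v ∈ μ a → u ∈ μ a
    · obtain ⟨u, v, huv, hv⟩ := hstep
      have hcc := contract_connected hG huv.ne
      refine ih {x : V // x ≠ v} W (contractEdge G u v) H ?_ hcc hH
        (model_contract hc hd ha huv.ne hv) (hF.contract V G u v huv hcc hFG)
      have h1 : Nat.card {x : V // x ≠ v} = Nat.card V - 1 := by
        have := Fintype.ofFinite V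
        classical
        rw [Nat.card_eq_fintype_card, Nat.card_eq_fintype_card, Fintype.card_subtype_compl,
          Fintype.card_subtype_eq]
      omega
    · have hst : ∀ u v, G.Adj u v → ∃ a, v ∈ μ a ∧ u ∉ μ a := by
        intro u v huv
        by_contra hcon
        refine hstep ⟨u, v, huv, fun a hva => ?_⟩
        by_contra hua
        exact hcon ⟨a, hva, hua⟩
      -- every vertex is in a branch set
      obtain ⟨a0⟩ := hH.nonempty
      obtain ⟨⟨x0, hx0⟩⟩ := (hc a0).nonempty
      have hcov : ∀ v, ∃ a, v ∈ μ a := by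
        intro v
        by_contra hv
        have hne : v ≠ x0 := fun h => hv ⟨a0, h ▸ hx0⟩
        obtain ⟨w⟩ := hG.preconnected v x0
        cases w with
        | nil => exact hne rfl
        | cons hadj _ =>
          obtain ⟨a, h1, _⟩ := hst _ _ hadj.symm
          exact hv ⟨a, h1⟩
      -- branch sets are singletons
      have hsing : ∀ a, ∀ x ∈ μ a, ∀ y ∈ μ a, x = y := by
        intro a x hx y hy
        by_contra hne
        obtain ⟨w⟩ := (hc a).preconnected ⟨x, hx⟩ ⟨y, hy⟩
        cases w with
        | nil => exact hne rfl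
        | @cons _ z _ hadj _ =>
          obtain ⟨b, h1, h2⟩ := hst z.1 x (SimpleGraph.Adj.symm hadj)
          have hab : a = b := by
            by_contra hab
            exact Set.disjoint_left.1 (hd a b hab) hx h1
          subst hab
          exact h2 z.2
      have hne : ∀ a, ∃ x, x ∈ μ a := fun a => by
        obtain ⟨⟨x, hx⟩⟩ := (hc a).nonempty
        exact ⟨x, hx⟩
      choose f hf using hne
      have hbij : Function.Bijective f := by
        refine ⟨fun a b hab => ?_, fun v => ?_⟩
        · by_contra hne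
          exact Set.disjoint_left.1 (hd a b hne) (hf a) (hab ▸ hf b)
        · obtain ⟨a, ha'⟩ := hcov v
          exact ⟨a, hsing a _ (hf a) _ ha'⟩
      let e : W ≃ V := Equiv.ofBijective f hbij
      have hle : H.map e.toEmbedding ≤ G := by
        intro x y hxy
        rw [SimpleGraph.map_adj] at hxy
        obtain ⟨a, b, hab, rfl, rfl⟩ := hxy
        obtain ⟨x, hx, y, hy, hxy⟩ := ha a b hab
        have h1 : x = f a := hsing a _ hx _ (hf a)
        have h2 : y = f b := hsing b _ hy _ (hf b)
        subst h1 h2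
        exact hxy
      have hiso : H ≃g H.map e.toEmbedding := SimpleGraph.Iso.map e H
      have hconn : (H.map e.toEmbedding).Connected := (Iso.connected_iff hiso).1 hH
      exact hF.iso V W _ H ⟨hiso.symm⟩ (subgraph_mem hF _ G _ le_rfl hle hconn hFG)

/-- Row (G0). -/
theorem minor : MinorStmt := by
  intro F hF V W _ _ G H hG hH hm hFG
  exact minor_aux F hF _ V W G H rfl hG hH hm hFG

end Vale.Agent.P235.H39
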